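import Vale.Agent.P236.R2.H383.Base

namespace Vale.Agent.P236.R2.H383

open MvPolynomial Finset

/-- a word formula, the primitive in the theorem `cob_wR2p` -/
def wR2p {R : Type*} [CommRing R]
    (x0 y0 x1 y1 : R) : R :=
  y0 * y1^2 + y0^2 * y1 - x0 * x1^11 - x0^2 * x1^10 + x0^3 * x1 * y1^2 - x0^3 * y0 * x1 * y1 +
    x0^3 * y0^2 * x1 + x0^6 * x1^2 * y1 + x0^6 * y0 * x1^2 - x0^10 * x1^2 - x0^11 * x1

theorem wR2p_map {R S F : Type*} [CommRing R] [CommRing S] [FunLike F R S]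
    [RingHomClass F R S] (φ : F) (x0 y0 x1 y1 : R) :
    φ (wR2p x0 y0 x1 y1) =
      wR2p (φ x0) (φ y0) (φ x1) (φ y1) := by
  simp only [wR2p, map_add, map_sub, map_mul, map_pow]

set_option maxHeartbeats 4000000 in
theorem tR2p {R : Type*} [CommRing R] [CharP R 3]
    (x0 y0 x1 y1 x2 y2 : R) :
    wR2p x1 y1 x2 y2 - wR2p (x0 + x1) (y0 + x0 ^ 3 * x1 + y1) x2 y2 + wR2p x0 y0 (x1 + x2) (y1 +
      x1 ^ 3 * x2 + y2) - wR2p x0 y0 x1 y1 =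
      fB1 x0 x1 * x2 ^ 3 - fB0 x0 x1 * x2 ^ 9 := by
  have h3 : (3 : R) = 0 := by exact_mod_cast CharP.cast_eq_zero R 3
  unfold wR2p fB0 fB1
  grind

/-- the primitive -/
noncomputable def cR2p : W :=
  wR2p (X (0, 0)) (X (0, 1)) (X (1, 0)) (X (1, 1))

theorem cR2p_mem : cR2p ∈ Co 2 := by
  have e := wR2p_map (Co 2).val
    ⟨X (0, 0), X_mem _ (by norm_num)⟩
    ⟨X (0, 1), X_mem _ (by norm_num)⟩
    ⟨X (1, 0), X_mem _ (by norm_num)⟩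
    ⟨X (1, 1), X_mem _ (by norm_num)⟩
  have e2 : cR2p = _ := e.symm
  rw [e2]
  exact SetLike.coe_mem _

theorem cob_cR2p : cob 2 cR2p =
    b 1 * sh 2 (h 1) - b 0 * sh 2 (h 2) := by
  unfold cR2p
  rw [cob_two]
  simp only [wR2p_map,
    f_0_0_0, f_0_0_1, f_0_1_0, f_0_1_1, f_1_0_0, f_1_0_1, f_1_1_0, f_1_1_1, f_2_0_0, f_2_0_1,
      f_2_1_0, f_2_1_1, f_3_0_0, f_3_0_1, f_3_1_0, f_3_1_1,
    b_zero, b_one, h_one, h_two, map_pow, sh_X, Nat.reduceAdd]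
  exact tR2p (X (0, 0)) (X (0, 1)) (X (1, 0)) (X (1, 1)) (X (2, 0)) (X (2, 1))

end Vale.Agent.P236.R2.H383
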