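import Vale.Agent.P236.R2.H383.Base

namespace Vale.Agent.P236.R2.H383

open MvPolynomial Finset

/-- a word formula, the primitive in the theorem `cob_wR4` -/
def wR4 {R : Type*} [CommRing R]
    (x0 y0 x1 y1 x2 y2 z2 : R) : R :=
  y0 * x1 * z2 - y0 * x1 * x2 * y2^3 - y0 * x1 * x2^9 * y2 + y0 * x1 * x2^13 - y0 * x1 * y1 *
    x2^9 + y0 * x1^2 * y2^3 - y0 * x1^2 * x2^12 - y0 * x1^5 * x2^9 + y0^2 * x1 * x2^9 - x0 * x1^2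
    * x2^3 * y2^3 - x0 * x1^2 * x2^15 - x0 * x1^5 * y2^3 + x0 * x1^5 * x2^12 - x0 * x1^8 * x2^9 -
    x0^2 * x1 * x2^3 * y2^3 - x0^2 * x1 * x2^15 - x0^2 * x1^4 * y2^3 + x0^2 * x1^4 * x2^12 - x0^2
    * x1^7 * x2^9 - x0^3 * x1^2 * z2 + x0^3 * x1^2 * x2 * y2^3 + x0^3 * x1^2 * x2^9 * y2 - x0^3 *
    x1^2 * x2^13 + x0^3 * x1^2 * y1 * x2^9 + x0^3 * x1^6 * x2^9 + x0^3 * y0 * x1^2 * x2^9 - x0^4
    * x1^2 * y2^3 + x0^4 * x1^2 * x2^12 + x0^4 * x1^5 * x2^9 - x0^5 * x1 * y2^3 + x0^5 * x1 *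
    x2^12 + x0^5 * x1^4 * x2^9 - x0^7 * x1^2 * x2^9 - x0^8 * x1 * x2^9

theorem wR4_map {R S F : Type*} [CommRing R] [CommRing S] [FunLike F R S]
    [RingHomClass F R S] (φ : F) (x0 y0 x1 y1 x2 y2 z2 : R) :
    φ (wR4 x0 y0 x1 y1 x2 y2 z2) =
      wR4 (φ x0) (φ y0) (φ x1) (φ y1) (φ x2) (φ y2) (φ z2) := by
  simp only [wR4, map_add, map_sub, map_mul, map_pow]

set_option maxHeartbeats 4000000 in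
theorem tR4 {R : Type*} [CommRing R] [CharP R 3]
    (x0 y0 x1 y1 x2 y2 z2 x3 y3 z3 : R) :
    wR4 x1 y1 x2 y2 x3 y3 z3 - wR4 (x0 + x1) (y0 + x0 ^ 3 * x1 + y1) x2 y2 x3 y3 z3 + wR4 x0 y0
      (x1 + x2) (y1 + x1 ^ 3 * x2 + y2) x3 y3 z3 - wR4 x0 y0 x1 y1 (x2 + x3) (y2 + x2 ^ 3 * x3 +
      y3) (z2 + y2 ^ 3 * x3 + x2 ^ 9 * y3 + z3) + wR4 x0 y0 x1 y1 x2 y2 z2 =
      fB0 x0 x1 * fG x2 y2 x3 := by
  have h3 : (3 : R) = 0 := by exact_mod_cast CharP.cast_eq_zero R 3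
  unfold wR4 fB0 fG
  grind

/-- the primitive -/
noncomputable def cR4 : W :=
  wR4 (X (0, 0)) (X (0, 1)) (X (1, 0)) (X (1, 1)) (X (2, 0)) (X (2, 1)) (X (2, 2))

theorem cR4_mem : cR4 ∈ Co 3 := by
  have e := wR4_map (Co 3).val
    ⟨X (0, 0), X_mem _ (by norm_num)⟩
    ⟨X (0, 1), X_mem _ (by norm_num)⟩
    ⟨X (1, 0), X_mem _ (by norm_num)⟩
    ⟨X (1, 1), X_mem _ (by norm_num)⟩
    ⟨X (2, 0), X_mem _ (by norm_num)⟩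
    ⟨X (2, 1), X_mem _ (by norm_num)⟩
    ⟨X (2, 2), X_mem _ (by norm_num)⟩
  have e2 : cR4 = _ := e.symm
  rw [e2]
  exact SetLike.coe_mem _

theorem cob_cR4 : cob 3 cR4 =
    b 0 * sh 2 Gc := by
  unfold cR4 Gc
  rw [cob_three]
  simp only [wR4_map,
    f_0_0_0, f_0_0_1, f_0_1_0, f_0_1_1, f_0_2_0, f_0_2_1, f_0_2_2, f_1_0_0, f_1_0_1, f_1_1_0,
      f_1_1_1, f_1_2_0, f_1_2_1, f_1_2_2, f_2_0_0, f_2_0_1, f_2_1_0, f_2_1_1, f_2_2_0, f_2_2_1,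
      f_2_2_2, f_3_0_0, f_3_0_1, f_3_1_0, f_3_1_1, f_3_2_0, f_3_2_1, f_3_2_2, f_4_0_0, f_4_0_1,
      f_4_1_0, f_4_1_1, f_4_2_0, f_4_2_1, f_4_2_2,
    b_zero, fG_map, sh_X, Nat.reduceAdd]
  exact tR4 (X (0, 0)) (X (0, 1)) (X (1, 0)) (X (1, 1)) (X (2, 0)) (X (2, 1)) (X (2, 2)) (X (3, 0)) (X (3, 1)) (X (3, 2))

end Vale.Agent.P236.R2.H383
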