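import Vale.Agent.P236.R2.H383.Base

namespace Vale.Agent.P236.R2.H383

open MvPolynomial Finset

/-- a word formula, the primitive in the theorem `cob_wR5` -/
def wR5 {R : Type*} [CommRing R]
    (x0 y0 x1 y1 z1 : R) : R :=
  y0 * x1^18 - x0 * x1^21 - x0^4 * x1^18 + x0^9 * z1 - x0^9 * x1 * y1^3 - x0^9 * x1^9 * y1 + x0^9
    * x1^13 - x0^9 * y0 * x1^9 - x0^10 * y1^3 + x0^10 * x1^12 + x0^13 * x1^9

theorem wR5_map {R S F : Type*} [CommRing R] [CommRing S] [FunLike F R S]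
    [RingHomClass F R S] (φ : F) (x0 y0 x1 y1 z1 : R) :
    φ (wR5 x0 y0 x1 y1 z1) =
      wR5 (φ x0) (φ y0) (φ x1) (φ y1) (φ z1) := by
  simp only [wR5, map_add, map_sub, map_mul, map_pow]

set_option maxHeartbeats 4000000 in
theorem tR5 {R : Type*} [CommRing R] [CharP R 3]
    (x0 y0 x1 y1 z1 x2 y2 z2 : R) :
    wR5 x1 y1 x2 y2 z2 - wR5 (x0 + x1) (y0 + x0 ^ 3 * x1 + y1) x2 y2 z2 + wR5 x0 y0 (x1 + x2) (y1
      + x1 ^ 3 * x2 + y2) (z1 + y1 ^ 3 * x2 + x1 ^ 9 * y2 + z2) - wR5 x0 y0 x1 y1 z1 =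
      x0 * fK x1 x2 y2 := by
  have h3 : (3 : R) = 0 := by exact_mod_cast CharP.cast_eq_zero R 3
  unfold wR5 fK
  grind

/-- the primitive -/
noncomputable def cR5 : W :=
  wR5 (X (0, 0)) (X (0, 1)) (X (1, 0)) (X (1, 1)) (X (1, 2))

theorem cR5_mem : cR5 ∈ Co 2 := by
  have e := wR5_map (Co 2).val
    ⟨X (0, 0), X_mem _ (by norm_num)⟩
    ⟨X (0, 1), X_mem _ (by norm_num)⟩
    ⟨X (1, 0), X_mem _ (by norm_num)⟩
    ⟨X (1, 1), X_mem _ (by norm_num)⟩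
    ⟨X (1, 2), X_mem _ (by norm_num)⟩
  have e2 : cR5 = _ := e.symm
  rw [e2]
  exact SetLike.coe_mem _

theorem cob_cR5 : cob 2 cR5 =
    h 0 * sh 1 Kc := by
  unfold cR5 Kc
  rw [cob_two]
  simp only [wR5_map,
    f_0_0_0, f_0_0_1, f_0_1_0, f_0_1_1, f_0_1_2, f_1_0_0, f_1_0_1, f_1_1_0, f_1_1_1, f_1_1_2,
      f_2_0_0, f_2_0_1, f_2_1_0, f_2_1_1, f_2_1_2, f_3_0_0, f_3_0_1, f_3_1_0, f_3_1_1, f_3_1_2,
    h_zero, fK_map, sh_X, Nat.reduceAdd]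
  exact tR5 (X (0, 0)) (X (0, 1)) (X (1, 0)) (X (1, 1)) (X (1, 2)) (X (2, 0)) (X (2, 1)) (X (2, 2))

end Vale.Agent.P236.R2.H383
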