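import Vale.Agent.P236.R2.H383.Base

namespace Vale.Agent.P236.R2.H383

open MvPolynomial Finset

set_option maxHeartbeats 4000000 in
theorem tX {R : Type*} [CommRing R] [CharP R 3] (x0 y0 x1 y1 x2 y2 x3 y3 : R) :
    fX x1 y1 x2 y2 x3 y3 - fX (x0 + x1) (y0 + x0 ^ 3 * x1 + y1) x2 y2 x3 y3
      + fX x0 y0 (x1 + x2) (y1 + x1 ^ 3 * x2 + y2) x3 y3
      - fX x0 y0 x1 y1 (x2 + x3) (y2 + x2 ^ 3 * x3 + y3)
      + fX x0 y0 x1 y1 x2 y2 = 0 := by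
  have h3 : (3 : R) = 0 := by exact_mod_cast CharP.cast_eq_zero R 3
  unfold fX
  grind

theorem tG {R : Type*} [CommRing R] [CharP R 3] (x0 y0 x1 y1 x2 : R) :
    fG x1 y1 x2 - fG (x0 + x1) (y0 + x0 ^ 3 * x1 + y1) x2
      + fG x0 y0 (x1 + x2) - fG x0 y0 x1 = 0 := by
  have h3 : (3 : R) = 0 := by exact_mod_cast CharP.cast_eq_zero R 3
  unfold fG
  grind

theorem tK {R : Type*} [CommRing R] [CharP R 3] (x0 x1 y1 x2 y2 : R) :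
    fK x1 x2 y2 - fK (x0 + x1) x2 y2
      + fK x0 (x1 + x2) (y1 + x1 ^ 3 * x2 + y2) - fK x0 x1 y1 = 0 := by
  have h3 : (3 : R) = 0 := by exact_mod_cast CharP.cast_eq_zero R 3
  unfold fK
  grind

theorem cob_Xc : cob 3 Xc = 0 := by
  unfold Xc
  rw [cob_three]
  simp only [fX_map, f_0_0_0, f_0_0_1, f_0_1_0, f_0_1_1, f_0_2_0, f_0_2_1,
    f_1_0_0, f_1_0_1, f_1_1_0, f_1_1_1, f_1_2_0, f_1_2_1,
    f_2_0_0, f_2_0_1, f_2_1_0, f_2_1_1, f_2_2_0, f_2_2_1,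
    f_3_0_0, f_3_0_1, f_3_1_0, f_3_1_1, f_3_2_0, f_3_2_1,
    f_4_0_0, f_4_0_1, f_4_1_0, f_4_1_1, f_4_2_0, f_4_2_1]
  exact tX _ _ _ _ _ _ _ _

theorem cob_Gc : cob 2 Gc = 0 := by
  unfold Gc
  rw [cob_two]
  simp only [fG_map, f_0_0_0, f_0_0_1, f_0_1_0, f_1_0_0, f_1_0_1, f_1_1_0,
    f_2_0_0, f_2_0_1, f_2_1_0, f_3_0_0, f_3_0_1, f_3_1_0]
  exact tG _ _ _ _ _

theorem cob_Kc : cob 2 Kc = 0 := by
  unfold Kc
  rw [cob_two]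
  simp only [fK_map, f_0_0_0, f_0_1_0, f_0_1_1, f_1_0_0, f_1_1_0, f_1_1_1,
    f_2_0_0, f_2_1_0, f_2_1_1, f_3_0_0, f_3_1_0, f_3_1_1]
  exact tK _ _ _ _ _

theorem Xc_mem : Xc ∈ Co 3 := by
  have e := fX_map (Co 3).val
    ⟨X (0, 0), X_mem _ (by norm_num)⟩ ⟨X (0, 1), X_mem _ (by norm_num)⟩
    ⟨X (1, 0), X_mem _ (by norm_num)⟩ ⟨X (1, 1), X_mem _ (by norm_num)⟩
    ⟨X (2, 0), X_mem _ (by norm_num)⟩ ⟨X (2, 1), X_mem _ (by norm_num)⟩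
  have e2 : Xc = _ := e.symm
  rw [e2]
  exact SetLike.coe_mem _

theorem Gc_mem : Gc ∈ Co 2 := by
  have e := fG_map (Co 2).val
    ⟨X (0, 0), X_mem _ (by norm_num)⟩ ⟨X (0, 1), X_mem _ (by norm_num)⟩
    ⟨X (1, 0), X_mem _ (by norm_num)⟩
  have e2 : Gc = _ := e.symm
  rw [e2]
  exact SetLike.coe_mem _

theorem Kc_mem : Kc ∈ Co 2 := by
  have e := fK_map (Co 2).val
    ⟨X (0, 0), X_mem _ (by norm_num)⟩
    ⟨X (1, 0), X_mem _ (by norm_num)⟩ ⟨X (1, 1), X_mem _ (by norm_num)⟩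
  have e2 : Kc = _ := e.symm
  rw [e2]
  exact SetLike.coe_mem _

theorem h_succ (j : ℕ) : h (j + 1) = h j ^ 3 := by
  unfold h
  rw [← pow_mul, pow_succ]

theorem b_succ (j : ℕ) : b (j + 1) = b j ^ 3 := by
  have : Fact (Nat.Prime 3) := ⟨by norm_num⟩
  unfold b
  rw [add_pow_char, mul_pow, mul_pow, ← pow_mul, ← pow_mul, ← pow_mul, ← pow_mul, pow_succ,
    mul_assoc]

theorem h_mem (j : ℕ) : h j ∈ Co 1 :=
  (Co 1).pow_mem (X_mem _ (by norm_num)) _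

theorem b_mem (j : ℕ) : b j ∈ Co 2 :=
  (Co 2).add_mem
    ((Co 2).mul_mem ((Co 2).pow_mem (X_mem _ (by norm_num)) _)
      ((Co 2).pow_mem (X_mem _ (by norm_num)) _))
    ((Co 2).mul_mem ((Co 2).pow_mem (X_mem _ (by norm_num)) _)
      ((Co 2).pow_mem (X_mem _ (by norm_num)) _))

theorem cob_h (j : ℕ) : cob 1 (h j) = 0 := by
  induction j with
  | zero =>
    rw [h_zero, cob_one, f_0_0_0, f_1_0_0, f_2_0_0]
    ring
  | succ j ih => rw [h_succ, cob_pow, ih, zero_pow (by norm_num)]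

theorem cob_b (j : ℕ) : cob 2 (b j) = 0 := by
  induction j with
  | zero =>
    rw [b_zero, cob_two]
    simp only [fB0_map, f_0_0_0, f_0_1_0, f_1_0_0, f_1_1_0, f_2_0_0, f_2_1_0, f_3_0_0, f_3_1_0]
    unfold fB0
    ring
  | succ j ih => rw [b_succ, cob_pow, ih, zero_pow (by norm_num)]

/-- `h_0 h_1 = 0` -/
theorem bd_h0h1 : Bd 1 (h 0 * sh 1 (h 1)) := by
  refine ⟨X (0, 1) - X (0, 0) ^ 4, (Co 1).sub_mem (X_mem _ (by norm_num))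
    ((Co 1).pow_mem (X_mem _ (by norm_num)) _), ?_⟩
  rw [cob_one, h_zero, h_one]
  simp only [map_sub, map_pow, f_0_0_0, f_0_0_1, f_1_0_0, f_1_0_1, f_2_0_0, f_2_0_1, sh_X,
    Nat.reduceAdd]
  have h3 : (3 : W) = 0 := three_W
  generalize (X (0, 0) : W) = a
  generalize (X (1, 0) : W) = c
  linear_combination (2 * a ^ 2 * c ^ 2 + a * c ^ 3 + a ^ 3 * c) * h3

end Vale.Agent.P236.R2.H383
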