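import Mathlib

/-!
# The cobar complex of the dual of the algebra of reduced powers at the prime 3

`P = F_3[ξ_1, ξ_2, …]` with the Milnor coproduct `Δ ξ_n = ∑ ξ_{n-j}^{3^j} ⊗ ξ_j`.
The tensor power `P^{⊗ s}` is the ring of polynomials in the variables `X (t, i)` with `t < s`:
`X (t, i)` is `ξ_{i+1}` in the slot `t` (slots are numbered from `0`).
-/

namespace Vale.Agent.P236.R2.H383

open MvPolynomial Finset

/-- Polynomials over `F_3` in the variables `X (t, i)`: `ξ_{i+1}` in the slot `t`. -/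
abbrev W := MvPolynomial (ℕ × ℕ) (ZMod 3)

/-- `ξ_n` in the slot `t` (`ξ_0 = 1`). -/
noncomputable def xi (t : ℕ) : ℕ → W
  | 0 => 1
  | n + 1 => X (t, n)

/-- `[x_0|…|x_{s-1}]` shifted by `n` slots to the right. -/
noncomputable def sh (n : ℕ) : W →ₐ[ZMod 3] W := aeval fun v => X (v.1 + n, v.2)

/-- The `k`-th coface: `k = 0` inserts `1` on the left, `k + 1` applies the coproduct in the
slot `k`; on words of length `s` the coface `s + 1` inserts `1` on the right. -/
noncomputable def face (k : ℕ) : W →ₐ[ZMod 3] W := aeval fun v =>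
  if v.1 + 1 < k then X v else if v.1 + 1 = k then
    ∑ j ∈ range (v.2 + 2), xi v.1 (v.2 + 1 - j) ^ 3 ^ j * xi (v.1 + 1) j
  else X (v.1 + 1, v.2)

/-- `P^{⊗ s}`: the polynomials in the variables of the slots `0, …, s - 1`. -/
noncomputable def Co (s : ℕ) : Subalgebra (ZMod 3) W := supported (ZMod 3) {v | v.1 < s}

/-- The cobar differential on `P^{⊗ s}`. -/
noncomputable def cob (s : ℕ) (f : W) : W := ∑ k ∈ range (s + 2), (-1) ^ k * face k f

/-- `f` is the coboundary of an element of `P^{⊗ s}`. -/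
def Bd (s : ℕ) (f : W) : Prop := ∃ w ∈ Co s, cob s w = f

theorem eq_on (s : ℕ) (φ ψ : W →ₐ[ZMod 3] W)
    (h : ∀ v : ℕ × ℕ, v.1 < s → φ (X v) = ψ (X v)) {f : W} (hf : f ∈ Co s) : φ f = ψ f := by
  have h1 : Co s ≤ AlgHom.equalizer φ ψ := by
    unfold Co supported
    refine Algebra.adjoin_le ?_
    rintro _ ⟨v, hv, rfl⟩
    exact h v hv
  exact h1 hf

theorem alg_ext (φ ψ : W →ₐ[ZMod 3] W) (h : ∀ t i : ℕ, φ (X (t, i)) = ψ (X (t, i))) (f : W) :
    φ f = ψ f := by
  have : φ = ψ := MvPolynomial.algHom_ext fun v => h v.1 v.2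
  rw [this]

theorem sh_X (n t i : ℕ) : sh n (X (t, i)) = X (t + n, i) := by simp [sh]

theorem sh_xi (n t i : ℕ) : sh n (xi t i) = xi (t + n) i := by
  cases i <;> simp [xi, sh_X]

theorem face_lt {k t : ℕ} (i : ℕ) (h : t + 1 < k) : face k (X (t, i)) = X (t, i) := by
  simp [face, h]

theorem face_gt {k t : ℕ} (i : ℕ) (h : k < t + 1) : face k (X (t, i)) = X (t + 1, i) := by
  have h1 : ¬ t + 1 < k := by omega
  have h2 : ¬ t + 1 = k := by omega
  simp [face, h1, h2]

theorem face_eq (t i : ℕ) : face (t + 1) (X (t, i)) =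
    ∑ j ∈ range (i + 2), xi t (i + 1 - j) ^ 3 ^ j * xi (t + 1) j := by
  simp [face]

theorem face_fix {s k : ℕ} (h : s < k) {f : W} (hf : f ∈ Co s) : face k f = f := by
  refine eq_on s (face k) (AlgHom.id _ _) (fun v hv => ?_) hf
  obtain ⟨t, i⟩ := v
  exact face_lt i (by simp at hv; omega)

theorem face_sh_le {k s : ℕ} (h : k ≤ s) (g : W) : face k (sh s g) = sh (s + 1) g := by
  refine alg_ext ((face k).comp (sh s)) (sh (s + 1)) (fun t i => ?_) g
  rw [AlgHom.comp_apply, sh_X, sh_X, face_gt i (by omega)]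
  rfl

theorem face_sh_gt (s l : ℕ) (g : W) :
    face (s + (l + 1)) (sh s g) = sh s (face (l + 1) g) := by
  rw [← AlgHom.comp_apply, ← AlgHom.comp_apply]
  generalize hm : s + (l + 1) = m
  refine alg_ext ((face m).comp (sh s)) ((sh s).comp (face (l + 1))) (fun t i => ?_) g
  rw [AlgHom.comp_apply, AlgHom.comp_apply, sh_X]
  subst hm
  rcases lt_trichotomy t l with h | h | h
  · have h1 : t + s + 1 < s + (l + 1) := by omega
    have h2 : t + 1 < l + 1 := by omega
    rw [face_lt i h1, face_lt i h2, sh_X]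
  · subst h
    have h1 : s + (t + 1) = (t + s) + 1 := by omega
    have h2 : t + 1 + s = t + s + 1 := by omega
    rw [h1, face_eq, face_eq, map_sum]
    refine sum_congr rfl fun j _ => ?_
    rw [map_mul, map_pow, sh_xi, sh_xi, h2]
  · have h1 : s + (l + 1) < t + s + 1 := by omega
    have h2 : l + 1 < t + 1 := by omega
    have h3 : t + 1 + s = t + s + 1 := by omega
    rw [face_gt i h1, face_gt i h2, sh_X, h3]

theorem sh_sh (a b : ℕ) (g : W) : sh a (sh b g) = sh (b + a) g := by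
  refine alg_ext ((sh a).comp (sh b)) (sh (b + a)) (fun t i => ?_) g
  rw [AlgHom.comp_apply, sh_X, sh_X, sh_X, add_assoc]

theorem Co_mono {s t : ℕ} (h : s ≤ t) : Co s ≤ Co t :=
  supported_mono fun _ hv => lt_of_lt_of_le hv h

theorem X_mem {s t : ℕ} (i : ℕ) (h : t < s) : X (t, i) ∈ Co s :=
  X_mem_supported.2 h

theorem sh_mem {s : ℕ} (n : ℕ) {g : W} (hg : g ∈ Co s) : sh n g ∈ Co (n + s) := by
  have h1 : Co s ≤ (Co (n + s)).comap (sh n) := by
    conv_lhs => unfold Co supported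
    refine Algebra.adjoin_le ?_
    rintro _ ⟨⟨t, i⟩, hv, rfl⟩
    have hv' : t < s := hv
    show sh n (X (t, i)) ∈ Co (n + s)
    rw [sh_X]
    exact X_mem i (by omega)
  exact h1 hg

/-- The Leibniz rule for the product by juxtaposition. -/
theorem leibniz {s t : ℕ} {f g : W} (hf : f ∈ Co s) :
    cob (s + t) (f * sh s g) = cob s f * sh (s + 1) g + (-1) ^ s * (f * sh s (cob t g)) := by
  have e1 : cob (s + t) (f * sh s g) = ∑ k ∈ range (s + 1), (-1) ^ k * face k f * sh (s + 1) g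
      + ∑ l ∈ range (t + 1), (-1) ^ (s + 1 + l) * (f * sh s (face (l + 1) g)) := by
    unfold cob
    rw [show s + t + 2 = (s + 1) + (t + 1) by ring, sum_range_add]
    congr 1
    · refine sum_congr rfl fun k hk => ?_
      rw [map_mul, face_sh_le (by simp at hk; omega), mul_assoc]
    · refine sum_congr rfl fun l _ => ?_
      rw [map_mul, face_fix (by omega) hf, show s + 1 + l = s + (l + 1) by ring, face_sh_gt]
  have e2 : cob s f = ∑ k ∈ range (s + 1), (-1) ^ k * face k f + (-1) ^ (s + 1) * f := by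
    unfold cob
    rw [sum_range_succ, face_fix (by omega) hf]
  have e3 : sh s (cob t g) = sh (s + 1) g
      + ∑ l ∈ range (t + 1), (-1) ^ (l + 1) * sh s (face (l + 1) g) := by
    unfold cob
    rw [sum_range_succ', map_add, map_sum, add_comm]
    congr 1
    · rw [pow_zero, one_mul]
      have := face_sh_le (k := 0) (s := 0) le_rfl g
      have h0 : sh 0 g = g := by
        refine alg_ext (sh 0) (AlgHom.id _ _) (fun t i => ?_) g
        rw [sh_X]; rfl
      rw [h0] at this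
      rw [this, sh_sh, show 0 + 1 + s = s + 1 by ring]
    · refine sum_congr rfl fun l _ => ?_
      rw [map_mul, map_pow, map_neg, map_one]
  rw [e1, e2, e3, add_mul, sum_mul, mul_add, mul_add, mul_sum, mul_sum, pow_succ]
  have e4 : ∑ l ∈ range (t + 1), (-1) ^ (s + 1 + l) * (f * sh s (face (l + 1) g)) =
      ∑ i ∈ range (t + 1), (-1) ^ s * (f * ((-1) ^ (i + 1) * (sh s) ((face (i + 1)) g))) :=
    sum_congr rfl fun l _ => by ring
  rw [e4]
  ring

theorem cob_add (s : ℕ) (f g : W) : cob s (f + g) = cob s f + cob s g := by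
  simp [cob, mul_add, sum_add_distrib]

theorem cob_neg (s : ℕ) (f : W) : cob s (-f) = -cob s f := by
  simp [cob]

instance charP_W : CharP W 3 := inferInstance

theorem three_W : (3 : W) = 0 := by exact_mod_cast CharP.cast_eq_zero W 3

theorem cob_pow (s : ℕ) (f : W) : cob s (f ^ 3) = cob s f ^ 3 := by
  have : Fact (Nat.Prime 3) := ⟨by norm_num⟩
  unfold cob
  rw [sum_pow_char 3]
  refine sum_congr rfl fun k _ => ?_
  rw [map_pow, mul_pow, ← pow_mul, mul_comm k 3, pow_mul]
  norm_num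

theorem Bd.add {s : ℕ} {f g : W} (hf : Bd s f) (hg : Bd s g) : Bd s (f + g) := by
  obtain ⟨w, hw, rfl⟩ := hf
  obtain ⟨u, hu, rfl⟩ := hg
  exact ⟨w + u, (Co s).add_mem hw hu, cob_add s w u⟩

theorem Bd.neg {s : ℕ} {f : W} (hf : Bd s f) : Bd s (-f) := by
  obtain ⟨w, hw, rfl⟩ := hf
  exact ⟨-w, (Co s).neg_mem hw, cob_neg s w⟩

theorem Bd.sub {s : ℕ} {f g : W} (hf : Bd s f) (hg : Bd s g) : Bd s (f - g) := by
  rw [sub_eq_add_neg]
  exact hf.add hg.neg

theorem Bd.frob {s : ℕ} {f : W} (hf : Bd s f) : Bd s (f ^ 3) := by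
  obtain ⟨w, hw, rfl⟩ := hf
  exact ⟨w ^ 3, (Co s).pow_mem hw 3, cob_pow s w⟩

/-- a coboundary times a cocycle -/
theorem Bd.cupR {s t : ℕ} {f g : W} (hf : Bd s f) (hg : g ∈ Co t) (hd : cob t g = 0) :
    Bd (s + t) (f * sh (s + 1) g) := by
  obtain ⟨w, hw, rfl⟩ := hf
  refine ⟨w * sh s g, (Co (s + t)).mul_mem (Co_mono (by omega) hw) (sh_mem s hg), ?_⟩
  rw [leibniz hw, hd]
  simp

/-- a cocycle times a coboundary -/
theorem Bd.cupL {s t : ℕ} {f g : W} (hf : f ∈ Co s) (hd : cob s f = 0) (hg : Bd t g) :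
    Bd (s + t) (f * sh s g) := by
  obtain ⟨w, hw, rfl⟩ := hg
  have h : cob (s + t) (f * sh s w) = (-1) ^ s * (f * sh s (cob t w)) := by
    rw [leibniz hf, hd]
    simp
  have hm : f * sh s w ∈ Co (s + t) :=
    (Co (s + t)).mul_mem (Co_mono (by omega) hf) (sh_mem s hw)
  rcases neg_one_pow_eq_or W s with h1 | h1
  · exact ⟨f * sh s w, hm, by rw [h, h1, one_mul]⟩
  · exact ⟨-(f * sh s w), (Co (s + t)).neg_mem hm, by rw [cob_neg, h, h1]; ring⟩

end Vale.Agent.P236.R2.H383
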