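import Vale.Agent.P236.R2.H383.Proj

set_option autoImplicit false

/-!
# The cobar complexes are complexes

The cosimplicial identities for the cofaces of the full dual Steenrod algebra (coassociativity of
the Milnor coproduct), and `cobA (s + 1) (cobA s f) = 0`.
-/

namespace Vale.Agent.P236.R2.H383

open MvPolynomial Finset TensorProduct

theorem face_xi (t n : ℕ) : face (t + 1) (xi t n) =
    ∑ j ∈ range (n + 1), xi t (n - j) ^ 3 ^ j * xi (t + 1) j := by
  cases n with
  | zero => simp [xi]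
  | succ n => exact face_eq t n

theorem face_xi_lt {k t : ℕ} (n : ℕ) (h : t + 1 < k) : face k (xi t n) = xi t n := by
  cases n with
  | zero => simp [xi]
  | succ n => exact face_lt n h

theorem face_xi_gt {k t : ℕ} (n : ℕ) (h : k < t + 1) : face k (xi t n) = xi (t + 1) n := by
  cases n with
  | zero => simp [xi]
  | succ n => exact face_gt n h

theorem sum_triangle {M : Type*} [AddCommMonoid M] (n : ℕ) (f : ℕ → ℕ → M) :
    ∑ j ∈ range (n + 1), ∑ l ∈ range (j + 1), f j l =
      ∑ l ∈ range (n + 1), ∑ a ∈ range (n - l + 1), f (a + l) l := by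
  rw [Finset.sum_sigma', Finset.sum_sigma']
  refine Finset.sum_nbij' (fun p => ⟨p.2, p.1 - p.2⟩) (fun p => ⟨p.2 + p.1, p.1⟩) ?_ ?_ ?_ ?_ ?_
  · rintro ⟨j, l⟩ h
    simp only [mem_sigma, mem_range] at h ⊢
    omega
  · rintro ⟨l, a⟩ h
    simp only [mem_sigma, mem_range] at h ⊢
    omega
  · rintro ⟨j, l⟩ h
    simp only [mem_sigma, mem_range] at h
    simp only [Sigma.mk.injEq, heq_eq_eq, and_true]
    omega
  · rintro ⟨l, a⟩ h
    simp only [mem_sigma, mem_range] at h
    simp
  · rintro ⟨j, l⟩ h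
    simp only [mem_sigma, mem_range] at h
    have : j - l + l = j := by omega
    simp only [this]

/-- the coassociativity identity -/
theorem coassoc {N : Type*} [Ring N] [Algebra (ZMod 3) N] (φ : W →ₐ[ZMod 3] N) (A B : ℕ → W)
    (G : ℕ → N) (n : ℕ) :
    ∑ j ∈ range (n + 1), φ (A (n - j) ^ 3 ^ j) *
        ∑ l ∈ range (j + 1), φ (B (j - l) ^ 3 ^ l) * G l =
      ∑ l ∈ range (n + 1),
        φ ((∑ a ∈ range (n - l + 1), A (n - l - a) ^ 3 ^ a * B a) ^ 3 ^ l) * G l := by
  have : Fact (Nat.Prime 3) := ⟨by norm_num⟩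
  simp only [Finset.mul_sum]
  rw [sum_triangle n (fun j l => φ (A (n - j) ^ 3 ^ j) * (φ (B (j - l) ^ 3 ^ l) * G l))]
  refine sum_congr rfl fun l hl => ?_
  rw [sum_pow_char_pow 3, map_sum, Finset.sum_mul]
  refine sum_congr rfl fun a ha => ?_
  have h1 : n - (a + l) = n - l - a := by omega
  have h2 : a + l - l = a := by omega
  rw [h1, h2, ← mul_assoc, ← map_mul, mul_pow, ← pow_mul, ← pow_add]

theorem face_face_X {k m : ℕ} (h : k ≤ m) (t i : ℕ) :
    face (m + 1) (face k (X (t, i))) = face k (face m (X (t, i))) := by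
  rcases lt_trichotomy k (t + 1) with h1 | h1 | h1
  · rw [face_gt i h1]
    rcases lt_trichotomy m (t + 1) with h2 | h2 | h2
    · rw [face_gt i h2, face_gt i (by omega), face_gt i (by omega)]
    · subst h2
      rw [face_eq, face_eq, map_sum]
      refine sum_congr rfl fun j _ => ?_
      rw [map_mul, map_pow, face_xi_gt _ (by omega), face_xi_gt _ (by omega)]
    · rw [face_lt i h2, face_lt i (by omega), face_gt i h1]
  · subst h1
    rcases Nat.eq_or_lt_of_le h with h2 | h2
    · subst h2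
      rw [face_eq, map_sum, map_sum]
      have e1 : ∀ j ∈ range (i + 2), face (t + 1 + 1) (xi t (i + 1 - j) ^ 3 ^ j * xi (t + 1) j) =
          (xi t (i + 1 - j) ^ 3 ^ j) *
            ∑ l ∈ range (j + 1), (xi (t + 1) (j - l) ^ 3 ^ l) * xi (t + 1 + 1) l := by
        intro j _
        rw [map_mul, map_pow, face_xi_lt _ (by omega), face_xi]
      have e2 : ∀ l ∈ range (i + 2), face (t + 1) (xi t (i + 1 - l) ^ 3 ^ l * xi (t + 1) l) =
          (∑ a ∈ range (i + 1 - l + 1), xi t (i + 1 - l - a) ^ 3 ^ a * xi (t + 1) a) ^ 3 ^ l *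
            xi (t + 1 + 1) l := by
        intro l _
        rw [map_mul, map_pow, face_xi, face_xi_gt _ (by omega)]
      rw [sum_congr rfl e1, sum_congr rfl e2]
      exact coassoc (AlgHom.id (ZMod 3) W) (xi t) (xi (t + 1)) (xi (t + 1 + 1)) (i + 1)
    · rw [face_lt i (by omega : t + 1 < m), face_eq, map_sum]
      refine sum_congr rfl fun j _ => ?_
      rw [map_mul, map_pow, face_xi_lt _ (by omega), face_xi_lt _ (by omega)]
  · rw [face_lt i h1, face_lt i (by omega), face_lt i (by omega), face_lt i h1]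

theorem face_face' {k m : ℕ} (h : k ≤ m) (f : W) :
    face (m + 1) (face k f) = face k (face m f) := by
  rw [← AlgHom.comp_apply, ← AlgHom.comp_apply]
  exact alg_ext _ _ (fun t i => face_face_X h t i) f

theorem tau_lt {k t : ℕ} (i : ℕ) (h : t + 1 < k) : faceA k (tau t i) = tau t i := by
  rw [faceA_tau, tauFace, if_pos h]

theorem tau_gt {k t : ℕ} (i : ℕ) (h : k < t + 1) : faceA k (tau t i) = tau (t + 1) i := by
  rw [faceA_tau, tauFace, if_neg (by simp only; omega), if_neg (by simp only; omega)]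

theorem tau_eq (t i : ℕ) : faceA (t + 1) (tau t i) =
    tau t i + ∑ j ∈ range (i + 1), incl (xi t (i - j) ^ 3 ^ j) * tau (t + 1) j := by
  rw [faceA_tau, tauFace, if_neg (by simp), if_pos rfl]

theorem faceA_faceA_tau {k m : ℕ} (h : k ≤ m) (t i : ℕ) :
    faceA (m + 1) (faceA k (tau t i)) = faceA k (faceA m (tau t i)) := by
  rcases lt_trichotomy k (t + 1) with h1 | h1 | h1
  · rw [tau_gt i h1]
    rcases lt_trichotomy m (t + 1) with h2 | h2 | h2
    · rw [tau_gt i h2, tau_gt i (by omega), tau_gt i (by omega)]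
    · subst h2
      rw [tau_eq, tau_eq, map_add, map_sum, tau_gt i h1]
      congr 1
      refine sum_congr rfl fun j _ => ?_
      rw [map_mul, faceA_incl, map_pow (face _), face_xi_gt _ (by omega), tau_gt j (by omega)]
    · rw [tau_lt i h2, tau_lt i (by omega), tau_gt i h1]
  · subst h1
    rcases Nat.eq_or_lt_of_le h with h2 | h2
    · subst h2
      rw [tau_eq, map_add, map_add, tau_lt i (by omega), map_sum, map_sum, tau_eq]
      have e1 : ∀ j ∈ range (i + 1), faceA (t + 1 + 1) (incl (xi t (i - j) ^ 3 ^ j) *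
          tau (t + 1) j) = incl (xi t (i - j) ^ 3 ^ j) * tau (t + 1) j +
            incl (xi t (i - j) ^ 3 ^ j) *
            ∑ l ∈ range (j + 1), incl (xi (t + 1) (j - l) ^ 3 ^ l) * tau (t + 1 + 1) l := by
        intro j _
        rw [map_mul, faceA_incl, map_pow (face _), face_xi_lt _ (by omega), tau_eq, mul_add]
      have e2 : ∀ l ∈ range (i + 1), faceA (t + 1) (incl (xi t (i - l) ^ 3 ^ l) *
          tau (t + 1) l) =
          incl ((∑ a ∈ range (i - l + 1), xi t (i - l - a) ^ 3 ^ a * xi (t + 1) a) ^ 3 ^ l) *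
            tau (t + 1 + 1) l := by
        intro l _
        rw [map_mul, faceA_incl, map_pow (face _), face_xi, tau_gt l (by omega)]
      rw [sum_congr rfl e1, sum_congr rfl e2, sum_add_distrib, ← add_assoc]
      rw [coassoc incl (xi t) (xi (t + 1)) (tau (t + 1 + 1)) i]
    · rw [tau_lt i (by omega : t + 1 < m), tau_eq, map_add, map_sum, tau_lt i (by omega)]
      congr 1
      refine sum_congr rfl fun j _ => ?_
      rw [map_mul, faceA_incl, map_pow (face _), face_xi_lt _ (by omega), tau_lt j (by omega)]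
  · rw [tau_lt i h1, tau_lt i (by omega), tau_lt i (by omega), tau_lt i h1]

/-- the cosimplicial identities -/
theorem faceA_faceA {k m : ℕ} (h : k ≤ m) (z : V) :
    faceA (m + 1) (faceA k z) = faceA k (faceA m z) := by
  rw [← AlgHom.comp_apply, ← AlgHom.comp_apply]
  have h1 : (faceA (m + 1)).comp (faceA k) = (faceA k).comp (faceA m) := by
    apply ext_V
    · intro t i
      simp only [AlgHom.comp_apply, faceA_incl, face_face' h]
    · intro t i
      simp only [AlgHom.comp_apply, faceA_faceA_tau h]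
  rw [h1]

theorem double_sum {N : Type*} [Ring N] (s : ℕ) (F : ℕ → ℕ → N)
    (hF : ∀ k m, k ≤ m → F (m + 1) k = F k m) :
    ∑ l ∈ range (s + 3), ∑ k ∈ range (s + 2), (-1) ^ l * ((-1) ^ k * F l k) = 0 := by
  rw [← Finset.sum_product']
  rw [← Finset.sum_filter_add_sum_filter_not (range (s + 3) ×ˢ range (s + 2))
    (fun p => p.2 < p.1)]
  rw [add_eq_zero_iff_eq_neg, ← Finset.sum_neg_distrib]
  refine Finset.sum_nbij' (fun p => (p.2, p.1 - 1)) (fun p => (p.2 + 1, p.1)) ?_ ?_ ?_ ?_ ?_
  · rintro ⟨l, k⟩ h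
    simp only [mem_filter, mem_product, mem_range] at h ⊢
    omega
  · rintro ⟨l, k⟩ h
    simp only [mem_filter, mem_product, mem_range] at h ⊢
    omega
  · rintro ⟨l, k⟩ h
    simp only [mem_filter, mem_product, mem_range] at h
    simp only [Prod.mk.injEq, and_true]
    omega
  · rintro ⟨l, k⟩ h
    simp
  · rintro ⟨l, k⟩ h
    simp only [mem_filter, mem_product, mem_range] at h
    obtain ⟨m, rfl⟩ : ∃ m, l = m + 1 := ⟨l - 1, by omega⟩
    simp only [Nat.add_sub_cancel]
    rw [hF k m (by omega), ← mul_assoc, ← mul_assoc, ← pow_add, ← pow_add, ← neg_mul]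
    congr 1
    rw [add_right_comm, pow_succ, mul_neg_one, add_comm m k]

/-- The cobar complex of the full dual Steenrod algebra is a complex. -/
theorem cobA_cobA (s : ℕ) (z : V) : cobA (s + 1) (cobA s z) = 0 := by
  unfold cobA
  have h : ∀ l ∈ range (s + 1 + 2), (-1 : V) ^ l * faceA l (∑ k ∈ range (s + 2),
      (-1) ^ k * faceA k z) = ∑ k ∈ range (s + 2), (-1) ^ l * ((-1) ^ k * faceA l (faceA k z)) := by
    intro l _
    rw [map_sum, Finset.mul_sum]
    refine sum_congr rfl fun k _ => ?_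
    rw [map_mul, map_pow, map_neg, map_one]
  rw [sum_congr rfl h]
  exact double_sum s (fun l k => faceA l (faceA k z)) (fun k m hkm => faceA_faceA hkm z)

theorem xi_mem {s t : ℕ} (n : ℕ) (h : t < s) : xi t n ∈ Co s := by
  cases n with
  | zero => exact one_mem _
  | succ n => exact X_mem n h

theorem CoA_mono {s t : ℕ} (h : s ≤ t) : CoA s ≤ CoA t := by
  apply Algebra.adjoin_mono
  rintro z (⟨u, i, hu, rfl⟩ | ⟨u, i, hu, rfl⟩)
  · exact Or.inl ⟨u, i, by omega, rfl⟩
  · exact Or.inr ⟨u, i, by omega, rfl⟩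

theorem tau_memA {s t : ℕ} (i : ℕ) (h : t < s) : tau t i ∈ CoA s :=
  Algebra.subset_adjoin (Or.inr ⟨t, i, h, rfl⟩)

theorem face_mem' {s : ℕ} (k : ℕ) {t : ℕ} (i : ℕ) (h : t < s) : face k (X (t, i)) ∈ Co (s + 1) := by
  rcases lt_trichotomy k (t + 1) with h1 | h1 | h1
  · rw [face_gt i h1]
    exact X_mem i (by omega)
  · subst h1
    rw [face_eq]
    exact sum_mem fun j _ => mul_mem (pow_mem (xi_mem _ (by omega)) _) (xi_mem _ (by omega))
  · rw [face_lt i h1]
    exact X_mem i (by omega)

theorem faceA_mem {s : ℕ} (k : ℕ) {z : V} (hz : z ∈ CoA s) : faceA k z ∈ CoA (s + 1) := by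
  have h1 : CoA s ≤ (CoA (s + 1)).comap (faceA k) := by
    refine Algebra.adjoin_le ?_
    rintro z (⟨t, i, ht, rfl⟩ | ⟨t, i, ht, rfl⟩)
    · show faceA k (incl (X (t, i))) ∈ CoA (s + 1)
      rw [faceA_incl]
      exact incl_mem (face_mem' k i ht)
    · show faceA k (tau t i) ∈ CoA (s + 1)
      rcases lt_trichotomy k (t + 1) with h1 | h1 | h1
      · rw [tau_gt i h1]
        exact tau_memA i (by omega)
      · subst h1
        rw [tau_eq]
        exact add_mem (tau_memA i (by omega)) (sum_mem fun j _ =>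
          mul_mem (incl_mem (pow_mem (xi_mem _ (by omega)) _)) (tau_memA j (by omega)))
      · rw [tau_lt i h1]
        exact tau_memA i (by omega)
  exact h1 hz

/-- the differential maps `A^{⊗ s}` to `A^{⊗ (s + 1)}` -/
theorem cobA_mem {s : ℕ} {z : V} (hz : z ∈ CoA s) : cobA s z ∈ CoA (s + 1) := by
  unfold cobA
  refine sum_mem fun k _ => mul_mem ?_ (faceA_mem k hz)
  exact pow_mem (neg_mem (one_mem _)) _

end Vale.Agent.P236.R2.H383
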