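import Vale.Agent.P236.R2.H383.TE

set_option autoImplicit false

/-!
# The cobar complex of the full dual Steenrod algebra at the prime 3

`A = F_3[ξ_1, ξ_2, …] ⊗ E(τ_0, τ_1, …)` with the Milnor coproduct
`Δ ξ_n = ∑ ξ_{n-j}^{3^j} ⊗ ξ_j`, `Δ τ_n = τ_n ⊗ 1 + ∑ ξ_{n-j}^{3^j} ⊗ τ_j`.
The (graded) tensor power `A^{⊗ s}` is the tensor product of the ring of polynomials in the
variables `X (t, i)` (`ξ_{i+1}` in the slot `t`) and of the exterior algebra on the `tau t i`
(`τ_i` in the slot `t`), `t < s`.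
-/

namespace Vale.Agent.P236.R2.H383

open MvPolynomial Finset TensorProduct

/-- the vector space with basis the `τ_i` in all slots -/
abbrev Tm : Type := (ℕ × ℕ) →₀ ZMod 3

/-- polynomials in the `ξ` and exterior in the `τ`, all slots -/
def V : Type := TE (ZMod 3) W Tm

noncomputable instance V.ring : Ring V := TE.ring (ZMod 3) W Tm
noncomputable instance V.algebra : Algebra (ZMod 3) V := TE.algebra (ZMod 3) W Tm

/-- the inclusion of the polynomials in the `ξ` -/
noncomputable def incl : W →ₐ[ZMod 3] V := TE.inl (ZMod 3) W Tm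

/-- the inclusion of the span of the `τ` -/
noncomputable def inT : Tm →ₗ[ZMod 3] V := TE.inr (ZMod 3) W Tm

/-- the basis vector `τ_i` in the slot `t` -/
noncomputable def Tm.e (t i : ℕ) : Tm := Finsupp.single (t, i) (1 : ZMod 3)

/-- `τ_i` in the slot `t` -/
noncomputable def tau (t i : ℕ) : V := inT (Tm.e t i)

/-- the image of `τ_i` in the slot `t` under the coface `k` -/
noncomputable def tauFace (k : ℕ) (v : ℕ × ℕ) : V :=
  if v.1 + 1 < k then tau v.1 v.2 else if v.1 + 1 = k then
    tau v.1 v.2 + ∑ j ∈ range (v.2 + 1), incl (xi v.1 (v.2 - j) ^ 3 ^ j) * tau (v.1 + 1) j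
  else tau (v.1 + 1) v.2

/-- the linear map with given values on the basis `τ` -/
noncomputable def Tm.lin (g : ℕ × ℕ → V) : Tm →ₗ[ZMod 3] V :=
  Finsupp.linearCombination (ZMod 3) g

theorem Tm.lin_e (g : ℕ × ℕ → V) (t i : ℕ) : Tm.lin g (Tm.e t i) = g (t, i) := by
  unfold Tm.lin Tm.e
  exact (Finsupp.linearCombination_single _ _ _).trans (one_smul _ _)

/-- the elements of degree one in the `τ` -/
noncomputable def Odd1 : Submodule (ZMod 3) V :=
  Submodule.span (ZMod 3) {z | ∃ (w : W) (m : Tm), z = incl w * inT m}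

theorem three_V (x : V) : x + x + x = 0 := by
  have h : ((1 : ZMod 3) + 1 + 1) • x = 0 := by
    have : (1 : ZMod 3) + 1 + 1 = 0 := by decide
    rw [this, zero_smul]
  rwa [add_smul, add_smul, one_smul] at h

theorem incl_commute (w : W) (z : V) : Commute (incl w) z := TE.inl_commute w z

theorem inT_swap (m m' : Tm) : inT m * inT m' + inT m' * inT m = 0 := TE.inr_swap m m'

theorem odd_swap {x y : V} (hx : x ∈ Odd1) (hy : y ∈ Odd1) : x * y + y * x = 0 := by
  unfold Odd1 at hx hy
  induction hx using Submodule.span_induction with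
  | mem x hx =>
    obtain ⟨w, m, rfl⟩ := hx
    induction hy using Submodule.span_induction with
    | mem y hy =>
      obtain ⟨w', m', rfl⟩ := hy
      have h1 : incl w * inT m * (incl w' * inT m') = incl w * incl w' * (inT m * inT m') := by
        rw [mul_assoc, ← mul_assoc (inT m), ← (incl_commute w' (inT m)).eq, mul_assoc, ← mul_assoc]
      have h2 : incl w' * inT m' * (incl w * inT m) = incl w * incl w' * (inT m' * inT m) := by
        rw [mul_assoc, ← mul_assoc (inT m'), ← (incl_commute w (inT m')).eq, mul_assoc,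
          ← mul_assoc, (incl_commute w (incl w')).eq]
      rw [h1, h2, ← mul_add, inT_swap, mul_zero]
    | zero => simp
    | add a b _ _ ha hb =>
      rw [mul_add, add_mul, add_add_add_comm, ha, hb, add_zero]
    | smul c a _ ha => rw [mul_smul_comm, smul_mul_assoc, ← smul_add, ha, smul_zero]
  | zero => simp
  | add a b _ _ ha hb =>
    rw [mul_add, add_mul, add_add_add_comm, ha, hb, add_zero]
  | smul c a _ ha => rw [mul_smul_comm, smul_mul_assoc, ← smul_add, ha, smul_zero]

theorem odd_sq {x : V} (hx : x ∈ Odd1) : x * x = 0 := by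
  have h1 := odd_swap hx hx
  have h2 := three_V (x * x)
  rw [h1, zero_add] at h2
  exact h2

theorem incl_tau_mem (w : W) (t i : ℕ) : incl w * tau t i ∈ Odd1 :=
  Submodule.subset_span ⟨w, Tm.e t i, rfl⟩

theorem tau_mem (t i : ℕ) : tau t i ∈ Odd1 := by
  have h := incl_tau_mem 1 t i
  rwa [map_one, one_mul] at h

theorem tauFace_mem (k : ℕ) (v : ℕ × ℕ) : tauFace k v ∈ Odd1 := by
  unfold tauFace
  split_ifs
  · exact tau_mem _ _
  · exact add_mem (tau_mem _ _) (sum_mem fun j _ => incl_tau_mem _ _ _)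
  · exact tau_mem _ _

theorem lin_mem (g : ℕ × ℕ → V) (hg : ∀ v, g v ∈ Odd1) (m : Tm) : Tm.lin g m ∈ Odd1 := by
  have h : Tm.lin g m = Finsupp.sum (show (ℕ × ℕ) →₀ ZMod 3 from m) fun v c => c • g v :=
    Finsupp.linearCombination_apply _ _
  rw [h, Finsupp.sum]
  exact sum_mem fun v _ => Submodule.smul_mem _ _ (hg v)

/-- the coface `k` on the span of the `τ` -/
noncomputable def oddFace (k : ℕ) : Tm →ₗ[ZMod 3] V := Tm.lin (tauFace k)

theorem oddFace_sq (k : ℕ) (m : Tm) : oddFace k m * oddFace k m = 0 :=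
  odd_sq (lin_mem _ (tauFace_mem k) m)

/-- the homomorphism with given values on the `ξ` and on the `τ` -/
noncomputable def liftV (f : W →ₐ[ZMod 3] W) (g : Tm →ₗ[ZMod 3] V)
    (hg : ∀ m, g m * g m = 0) : V →ₐ[ZMod 3] V :=
  TE.lift (incl.comp f) g hg (fun a c => incl_commute (f a) c)

/-- The `k`-th coface of the cobar complex of the full dual Steenrod algebra. -/
noncomputable def faceA (k : ℕ) : V →ₐ[ZMod 3] V := liftV (face k) (oddFace k) (oddFace_sq k)

/-- `A^{⊗ s}`: generated by the `ξ` and the `τ` of the slots `0, …, s - 1`. -/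
noncomputable def CoA (s : ℕ) : Subalgebra (ZMod 3) V :=
  Algebra.adjoin (ZMod 3) ({z | ∃ t i, t < s ∧ z = incl (X (t, i))} ∪
    {z | ∃ t i, t < s ∧ z = tau t i})

/-- The cobar differential on `A^{⊗ s}`. -/
noncomputable def cobA (s : ℕ) (f : V) : V := ∑ k ∈ range (s + 2), (-1) ^ k * faceA k f

/-- `f` is the coboundary of an element of `A^{⊗ s}`. -/
def BdA (s : ℕ) (f : V) : Prop := ∃ w ∈ CoA s, cobA s w = f

theorem liftV_incl (f : W →ₐ[ZMod 3] W) (g : Tm →ₗ[ZMod 3] V)
    (hg : ∀ m, g m * g m = 0) (w : W) : liftV f g hg (incl w) = incl (f w) :=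
  TE.lift_inl (incl.comp f) g hg (fun a c => incl_commute (f a) c) w

theorem liftV_inT (f : W →ₐ[ZMod 3] W) (g : Tm →ₗ[ZMod 3] V)
    (hg : ∀ m, g m * g m = 0) (m : Tm) : liftV f g hg (inT m) = g m :=
  TE.lift_inr (incl.comp f) g hg (fun a c => incl_commute (f a) c) m

theorem faceA_incl (k : ℕ) (f : W) : faceA k (incl f) = incl (face k f) :=
  liftV_incl _ _ _ f

theorem faceA_tau (k t i : ℕ) : faceA k (tau t i) = tauFace k (t, i) :=
  (liftV_inT _ _ _ (Tm.e t i)).trans (Tm.lin_e _ t i)

theorem cobA_incl (s : ℕ) (f : W) : cobA s (incl f) = incl (cob s f) := by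
  unfold cobA cob
  rw [map_sum]
  refine sum_congr rfl fun k _ => ?_
  rw [faceA_incl, map_mul, map_pow, map_neg, map_one]

theorem incl_mem {s : ℕ} {f : W} (hf : f ∈ Co s) : incl f ∈ CoA s := by
  have h1 : Co s ≤ (CoA s).comap incl := by
    conv_lhs => unfold Co supported
    refine Algebra.adjoin_le ?_
    rintro _ ⟨⟨t, i⟩, hv, rfl⟩
    exact Algebra.subset_adjoin (Or.inl ⟨t, i, hv, rfl⟩)
  exact h1 hf

/-- a coboundary over the polynomial part is a coboundary over the dual Steenrod algebra -/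
theorem Bd.incl {s : ℕ} {f : W} (h : Bd s f) : BdA s (incl f) := by
  obtain ⟨w, hw, rfl⟩ := h
  exact ⟨H383.incl w, incl_mem hw, cobA_incl s w⟩

end Vale.Agent.P236.R2.H383
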