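import Vale.Agent.P236.R2.H383.CX
import Vale.Agent.P236.R2.H383.CR1
import Vale.Agent.P236.R2.H383.CR1p
import Vale.Agent.P236.R2.H383.CR2p
import Vale.Agent.P236.R2.H383.CR3
import Vale.Agent.P236.R2.H383.CR4
import Vale.Agent.P236.R2.H383.CR5

namespace Vale.Agent.P236.R2.H383

open MvPolynomial Finset

theorem bd1 : Bd 3 (b 1 * sh 2 (b 1) - h 1 * sh 1 Xc) := ⟨_, cR1_mem, cob_cR1⟩
theorem bd1p : Bd 3 (b 1 * sh 2 (b 1) + Xc * sh 3 (h 1)) := ⟨_, cR1p_mem, cob_cR1p⟩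
theorem bd2p : Bd 2 (b 1 * sh 2 (h 1) - b 0 * sh 2 (h 2)) := ⟨_, cR2p_mem, cob_cR2p⟩
theorem bd3 : Bd 3 (h 2 * sh 1 Xc + Gc * sh 2 (b 1) - b 0 * sh 2 Kc) := ⟨_, cR3_mem, cob_cR3⟩
theorem bd4 : Bd 3 (b 0 * sh 2 Gc) := ⟨_, cR4_mem, cob_cR4⟩
theorem bd5 : Bd 2 (h 0 * sh 1 Kc) := ⟨_, cR5_mem, cob_cR5⟩

theorem pow3_add (f g : W) : (f + g) ^ 3 = f ^ 3 + g ^ 3 := by
  have : Fact (Nat.Prime 3) := ⟨by norm_num⟩
  exact add_pow_char f g 3

theorem pow3_sub (f g : W) : (f - g) ^ 3 = f ^ 3 - g ^ 3 := by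
  have : Fact (Nat.Prime 3) := ⟨by norm_num⟩
  exact sub_pow_char f g

/-- the relation `b_{j+1} h_{j+1} = b_j h_{j+2}` -/
theorem bd_bh (j : ℕ) : Bd 2 (b (j + 1) * sh 2 (h (j + 1)) - b j * sh 2 (h (j + 2))) := by
  induction j with
  | zero => exact bd2p
  | succ j ih =>
    have e := ih.frob
    rw [pow3_sub, mul_pow, mul_pow, ← map_pow, ← map_pow, ← b_succ (j + 1), ← b_succ j,
      ← h_succ (j + 1), ← h_succ (j + 2)] at e
    have q : j + 1 + 2 = j + 2 + 1 := by omega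
    rw [q]
    exact e

/-- `h_0 b_1^2 = 0` -/
theorem bd_h0b1b1 : Bd 4 (h 0 * sh 1 (b 1) * sh 3 (b 1)) := by
  have e1 := Bd.cupL (h_mem 0) (cob_h 0) bd1
  have e2 := Bd.cupR bd_h0h1 Xc_mem cob_Xc
  have e3 := e1.add e2
  simp only [map_sub, map_mul, sh_sh, Nat.reduceAdd] at e3
  have e4 : h 0 * sh 1 (b 1) * sh 3 (b 1) = h 0 * (sh 1 (b 1) * sh 3 (b 1) - sh 1 (h 1) * sh 2 Xc)
      + h 0 * sh 1 (h 1) * sh 2 Xc := by ring
  rw [e4]
  exact e3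

theorem bd_hbb (j : ℕ) : Bd 4 (h j * sh 1 (b (j + 1)) * sh 3 (b (j + 1))) := by
  induction j with
  | zero => exact bd_h0b1b1
  | succ j ih =>
    have e := ih.frob
    rw [mul_pow, mul_pow, ← map_pow, ← map_pow] at e
    rw [b_succ (j + 1), h_succ j]
    exact e

/-- `b_2^3 = 0` -/
theorem bd_b2 : Bd 5 (b 2 * sh 2 (b 2) * sh 4 (b 2)) := by
  have q1 : b 2 = b 1 ^ 3 := b_succ 1
  have q2 : h 2 = h 1 ^ 3 := h_succ 1
  have q3 : h 3 = h 2 ^ 3 := h_succ 2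
  have q4 : h 1 = h 0 ^ 3 := h_succ 0
  have q5 : b 1 = b 0 ^ 3 := b_succ 0
  have F1 := bd1.frob
  have F2 := bd2p.frob
  have F3 := bd3.frob
  have F4 := bd4.frob
  have F5 := bd5.frob
  rw [pow3_sub, mul_pow, mul_pow, ← map_pow, ← map_pow, ← q1, ← q2] at F1
  rw [pow3_sub, mul_pow, mul_pow, ← map_pow, ← map_pow, ← q1, ← q2, ← q3, ← q5] at F2
  rw [pow3_sub, pow3_add, mul_pow, mul_pow, mul_pow, ← map_pow, ← map_pow, ← map_pow, ← q1, ← q3,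
    ← q5] at F3
  rw [mul_pow, ← map_pow, ← q5] at F4
  rw [mul_pow, ← map_pow, ← q4] at F5
  have X'mem : Xc ^ 3 ∈ Co 3 := (Co 3).pow_mem Xc_mem 3
  have X'cob : cob 3 (Xc ^ 3) = 0 := by rw [cob_pow, cob_Xc, zero_pow (by norm_num)]
  have K'mem : Kc ^ 3 ∈ Co 2 := (Co 2).pow_mem Kc_mem 3
  have K'cob : cob 2 (Kc ^ 3) = 0 := by rw [cob_pow, cob_Kc, zero_pow (by norm_num)]
  have a := Bd.cupL (b_mem 2) (cob_b 2) F1
  have b' := Bd.cupR F2 X'mem X'cob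
  have c := Bd.cupL (b_mem 1) (cob_b 1) F3
  have d := Bd.cupR F4 (b_mem 2) (cob_b 2)
  have e := Bd.cupR bd1p K'mem K'cob
  have f := Bd.cupL Xc_mem cob_Xc F5
  have tot := ((((a.add b').add c).sub d).add e).sub f
  simp only [map_sub, map_add, map_mul, sh_sh, Nat.reduceAdd] at tot
  refine cast ?_ tot
  congr 1
  ring

/-- `b_j^3 = 0` for all `j ≥ 2` -/
theorem bd_bbb (j : ℕ) (hj : 2 ≤ j) : Bd 5 (b j * sh 2 (b j) * sh 4 (b j)) := by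
  induction j, hj using Nat.le_induction with
  | base => exact bd_b2
  | succ j _ ih =>
    have e := ih.frob
    rw [mul_pow, mul_pow, ← map_pow, ← map_pow, ← b_succ j] at e
    exact e

/-- `h_0 b_j^3 = 0` for all `j ≥ 1` -/
theorem bd_hbbb (j : ℕ) (hj : 1 ≤ j) :
    Bd 6 (h 0 * sh 1 (b j) * sh 3 (b j) * sh 5 (b j)) := by
  rcases Nat.lt_or_ge j 2 with h2 | h2
  · have : j = 1 := by omega
    subst this
    have e := Bd.cupR bd_h0b1b1 (b_mem 1) (cob_b 1)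
    simp only [Nat.reduceAdd] at e
    exact e
  · have e := Bd.cupL (h_mem 0) (cob_h 0) (bd_bbb j h2)
    simp only [map_mul, sh_sh, Nat.reduceAdd] at e
    rw [mul_assoc, mul_assoc, ← mul_assoc (sh 1 (b j))]
    exact e

end Vale.Agent.P236.R2.H383
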