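import Vale.Agent.P236.R2.H383.Full

set_option autoImplicit false

/-!
# The cohomology of the polynomial part is a direct summand

The projection killing the `τ` commutes with the cofaces, so a polynomial in the `ξ` is a
coboundary over the full dual Steenrod algebra if and only if it is one over `P`.
-/

namespace Vale.Agent.P236.R2.H383

open MvPolynomial Finset TensorProduct

/-- the projection to the polynomials in the `ξ`, `τ` goes to zero -/
noncomputable def pr : V →ₐ[ZMod 3] W :=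
  TE.lift (AlgHom.id (ZMod 3) W) (0 : Tm →ₗ[ZMod 3] W) (fun m => by simp)
    (fun _ _ => Commute.all _ _)

theorem pr_incl (f : W) : pr (incl f) = f :=
  TE.lift_inl (AlgHom.id (ZMod 3) W) (0 : Tm →ₗ[ZMod 3] W) (fun m => by simp)
    (fun _ _ => Commute.all _ _) f

theorem pr_tau (t i : ℕ) : pr (tau t i) = 0 :=
  TE.lift_inr (AlgHom.id (ZMod 3) W) (0 : Tm →ₗ[ZMod 3] W) (fun m => by simp)
    (fun _ _ => Commute.all _ _) (Tm.e t i)

theorem pr_tauFace (k : ℕ) (v : ℕ × ℕ) : pr (tauFace k v) = 0 := by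
  unfold tauFace
  split_ifs
  · exact pr_tau _ _
  · rw [map_add, pr_tau, map_sum, zero_add]
    exact sum_eq_zero fun j _ => by rw [map_mul, pr_tau, mul_zero]
  · exact pr_tau _ _

theorem Tm.ext_lin {N : Type} [AddCommGroup N] [Module (ZMod 3) N] (f g : Tm →ₗ[ZMod 3] N)
    (h : ∀ t i : ℕ, f (Tm.e t i) = g (Tm.e t i)) : f = g := by
  have h1 : ∀ v : ℕ × ℕ, f.comp (Finsupp.lsingle v : ZMod 3 →ₗ[ZMod 3] (ℕ × ℕ) →₀ ZMod 3) =
      g.comp (Finsupp.lsingle v : ZMod 3 →ₗ[ZMod 3] (ℕ × ℕ) →₀ ZMod 3) := by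
    intro v
    apply LinearMap.ext_ring
    exact h v.1 v.2
  exact Finsupp.lhom_ext' (φ := f) (ψ := g) h1

theorem ext_V {B : Type} [Ring B] [Algebra (ZMod 3) B] (φ ψ : V →ₐ[ZMod 3] B)
    (h1 : ∀ t i : ℕ, φ (incl (X (t, i))) = ψ (incl (X (t, i))))
    (h2 : ∀ t i : ℕ, φ (tau t i) = ψ (tau t i)) : φ = ψ := by
  apply TE.hom_ext (k := ZMod 3) (A := W) (M := Tm)
  · apply MvPolynomial.algHom_ext
    intro v
    exact h1 v.1 v.2
  · apply Tm.ext_lin
    intro t i
    exact h2 t i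

theorem pr_faceA (k : ℕ) (z : V) : pr (faceA k z) = face k (pr z) := by
  have h : pr.comp (faceA k) = (face k).comp pr := by
    apply ext_V
    · intro t i
      simp only [AlgHom.comp_apply, faceA_incl, pr_incl]
    · intro t i
      simp only [AlgHom.comp_apply, faceA_tau, pr_tauFace, pr_tau, map_zero]
  exact DFunLike.congr_fun h z

theorem pr_cobA (s : ℕ) (z : V) : pr (cobA s z) = cob s (pr z) := by
  unfold cobA cob
  rw [map_sum]
  refine sum_congr rfl fun k _ => ?_
  rw [map_mul, pr_faceA, map_pow, map_neg, map_one]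

theorem pr_mem {s : ℕ} {z : V} (hz : z ∈ CoA s) : pr z ∈ Co s := by
  have h1 : CoA s ≤ (Co s).comap pr := by
    refine Algebra.adjoin_le ?_
    rintro z (⟨t, i, ht, rfl⟩ | ⟨t, i, ht, rfl⟩)
    · show pr (incl (X (t, i))) ∈ Co s
      rw [pr_incl]
      exact X_mem i ht
    · show pr (tau t i) ∈ Co s
      rw [pr_tau]
      exact zero_mem _
  exact h1 hz

/-- `Ext` over `P` is a direct summand of `Ext` over the dual Steenrod algebra. -/
theorem bdA_incl_iff {s : ℕ} {f : W} : BdA s (incl f) ↔ Bd s f := by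
  refine ⟨?_, Bd.incl⟩
  rintro ⟨w, hw, h⟩
  refine ⟨pr w, pr_mem hw, ?_⟩
  rw [← pr_cobA, h, pr_incl]

end Vale.Agent.P236.R2.H383
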