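import Vale.Agent.P236.R2.H383.Cobar

set_option autoImplicit false

/-!
# The tensor product of a commutative algebra and an exterior algebra, sealed
-/

namespace Vale.Agent.P236.R2.H383

open TensorProduct

section
variable (k : Type) [CommRing k] (A : Type) [CommRing A] [Algebra k A] (M : Type)
  [AddCommGroup M] [Module k M]

/-- `A ⊗ Λ(M)` -/
def TE : Type := A ⊗[k] ExteriorAlgebra k M

/-- the ring structure -/
noncomputable def TE.ringDef : Ring (A ⊗[k] ExteriorAlgebra k M) :=
  inferInstance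

noncomputable instance TE.ring : Ring (TE k A M) := TE.ringDef k A M

/-- the algebra structure -/
noncomputable def TE.algebraDef :
    Algebra k (A ⊗[k] ExteriorAlgebra k M) := inferInstance

noncomputable instance TE.algebra : Algebra k (TE k A M) := TE.algebraDef k A M

/-- the inclusion of `A` -/
noncomputable def TE.inl : A →ₐ[k] TE k A M :=
  (Algebra.TensorProduct.includeLeft : A →ₐ[k] A ⊗[k] ExteriorAlgebra k M)

/-- the inclusion of the exterior algebra -/
noncomputable def TE.inx : ExteriorAlgebra k M →ₐ[k] TE k A M :=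
  (Algebra.TensorProduct.includeRight : ExteriorAlgebra k M →ₐ[k] A ⊗[k] ExteriorAlgebra k M)

/-- the inclusion of `M` -/
noncomputable def TE.inr : M →ₗ[k] TE k A M :=
  (TE.inx k A M).toLinearMap.comp (ExteriorAlgebra.ι k)

end

section
variable {k : Type} [CommRing k] {A : Type} [CommRing A] [Algebra k A] {M : Type}
  [AddCommGroup M] [Module k M]

theorem TE.inr_apply (m : M) : TE.inr k A M m = TE.inx k A M (ExteriorAlgebra.ι k m) := rfl

theorem TE.inr_swap (m m' : M) :
    TE.inr k A M m * TE.inr k A M m' + TE.inr k A M m' * TE.inr k A M m = 0 := by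
  rw [TE.inr_apply, TE.inr_apply, ← map_mul (TE.inx k A M), ← map_mul (TE.inx k A M),
    ← map_add (TE.inx k A M), ExteriorAlgebra.ι_add_mul_swap, map_zero]

theorem TE.inl_commute (a : A) (z : TE k A M) : Commute (TE.inl k A M a) z := by
  have h : ∀ z : A ⊗[k] ExteriorAlgebra k M,
      (a ⊗ₜ[k] (1 : ExteriorAlgebra k M)) * z = z * (a ⊗ₜ[k] (1 : ExteriorAlgebra k M)) := by
    intro z
    induction z using TensorProduct.induction_on with
    | zero => rw [mul_zero, zero_mul]
    | tmul b c =>
      rw [Algebra.TensorProduct.tmul_mul_tmul, Algebra.TensorProduct.tmul_mul_tmul, mul_comm a b,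
        one_mul, mul_one]
    | add b c hb hc => rw [mul_add, add_mul, hb, hc]
  exact h z

/-- homomorphisms out of `A ⊗ Λ(M)` -/
noncomputable def TE.lift {C : Type} [Ring C] [Algebra k C] (f : A →ₐ[k] C) (g : M →ₗ[k] C)
    (hg : ∀ m, g m * g m = 0) (hc : ∀ a c, Commute (f a) c) : TE k A M →ₐ[k] C :=
  (Algebra.TensorProduct.lift f (ExteriorAlgebra.lift k ⟨g, hg⟩) (fun a _ => hc a _) :
    A ⊗[k] ExteriorAlgebra k M →ₐ[k] C)

theorem TE.lift_inl {C : Type} [Ring C] [Algebra k C] (f : A →ₐ[k] C) (g : M →ₗ[k] C)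
    (hg : ∀ m, g m * g m = 0) (hc : ∀ a c, Commute (f a) c) (a : A) :
    TE.lift f g hg hc (TE.inl k A M a) = f a := by
  have h := Algebra.TensorProduct.lift_comp_includeLeft f (ExteriorAlgebra.lift k ⟨g, hg⟩)
    (fun a _ => hc a _)
  exact DFunLike.congr_fun h a

theorem TE.lift_inr {C : Type} [Ring C] [Algebra k C] (f : A →ₐ[k] C) (g : M →ₗ[k] C)
    (hg : ∀ m, g m * g m = 0) (hc : ∀ a c, Commute (f a) c) (m : M) :
    TE.lift f g hg hc (TE.inr k A M m) = g m := by
  have h := Algebra.TensorProduct.lift_comp_includeRight f (ExteriorAlgebra.lift k ⟨g, hg⟩)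
    (fun a _ => hc a _)
  refine (DFunLike.congr_fun h (ExteriorAlgebra.ι k m)).trans ?_
  exact ExteriorAlgebra.lift_ι_apply k g hg m

theorem TE.hom_ext {C : Type} [Ring C] [Algebra k C] (φ ψ : TE k A M →ₐ[k] C)
    (h1 : φ.comp (TE.inl k A M) = ψ.comp (TE.inl k A M))
    (h2 : φ.toLinearMap.comp (TE.inr k A M) = ψ.toLinearMap.comp (TE.inr k A M)) : φ = ψ := by
  have h3 : φ.comp (TE.inx k A M) = ψ.comp (TE.inx k A M) := by
    apply ExteriorAlgebra.hom_ext
    exact h2
  exact Algebra.TensorProduct.ext (R := k) (S := k) (A := A) (B := ExteriorAlgebra k M) h1 h3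

end

end Vale.Agent.P236.R2.H383
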